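import Crest.Agent.Helper99.S0076.BW
import Crest.Agent.Helper42.S0076.TR
import Crest.Agent.Helper48.S0076.Stab
import Crest.Agent.Helper54.S0076.JE
import Crest.Agent.Helper73.S0076.Cover
import Crest.Agent.Helper91.S0076.PT

/-!
# S0076 log-spread lemma, assembly piece AR (helper99): abstract Theorem A + (R3)

`thmAR`: if `stab B ≤ 2 |G| p^E`, (KB) `inj S B · w^(m-|S|) ≤ inj Z B` for all `S ⊆ Z`, and every
point of `B` is heavy (`hits x ≥ ω · inj Z B`), then
`E log (w/p) ≤ log 2 + E (log (m / (ω E)) + 2)`.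
Steps [PW] and [END] of notes/s0076_helper68_blueprint.md, from the landed leaves
BW (helper99), TR (helper42), ST (helper48), JE (helper54), CV (helper73), PT (helper91).
-/

set_option autoImplicit false

namespace Crest.Agent.Helper99.S0076

open Finset Filter Topology Crest.Agent.Helper68.S0076
open scoped Pointwise

variable {G : Type*} {X : Type*} [Group G] [Fintype G] [Fintype X] [DecidableEq X] [MulAction G X]

/-- `hits ≤ inj`. -/
theorem hits_le_inj (Z B : Finset X) (x : X) : hits G Z B x ≤ inj G Z B := by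
  unfold hits inj
  exact Finset.card_le_card (fun g hg => by
    simp only [Finset.mem_filter, Finset.mem_univ, true_and] at hg ⊢
    exact hg.1)

/-- Step [PW]: `A_T(B) · w^E ≤ 2 p^E · inj(Z,B)^T`. -/
theorem stepPW (B Z : Finset X) (p w ω : ℝ) (hw : 0 < w) (hω : 0 ≤ ω)
    (hωE : ω * (B.card : ℝ) ≤ (Z.card : ℝ))
    (hstab : (stab G B : ℝ) ≤ 2 * (Fintype.card G : ℝ) * p ^ B.card)
    (hKB : ∀ S ⊆ Z, (inj G S B : ℝ) * w ^ (Z.card - S.card) ≤ (inj G Z B : ℝ)) (T : ℕ) :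
    Aseq Z (qw (G := G) ω B.card Z) T B * w ^ B.card ≤ 2 * p ^ B.card * (inj G Z B : ℝ) ^ T := by
  have hA : ∀ U : Finset X, 0 ≤ Aseq Z (qw (G := G) ω B.card Z) T U :=
    fun U => bw_Aseq_nonneg Z _ (fun U g => bw_qw_nonneg ω B.card Z U g hω hωE) T U
  have hGpos : (0 : ℝ) < (Fintype.card G : ℝ) := by
    exact_mod_cast Fintype.card_pos
  have h1 : ∑ g : G, (fun U : Finset X => w ^ U.card * Aseq Z (qw (G := G) ω B.card Z) T U) (g • B)
      = (Fintype.card G : ℝ) * (w ^ B.card * Aseq Z (qw (G := G) ω B.card Z) T B) := by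
    have : ∀ g : G, (fun U : Finset X => w ^ U.card * Aseq Z (qw (G := G) ω B.card Z) T U) (g • B)
        = w ^ B.card * Aseq Z (qw (G := G) ω B.card Z) T B := by
      intro g
      show w ^ (g • B).card * Aseq Z (qw (G := G) ω B.card Z) T (g • B) = _
      rw [Finset.card_smul_finset,
        Crest.Agent.Helper42.S0076.Aseq_smul Z (qw (G := G) ω B.card Z)
          (fun g U τ => Crest.Agent.Helper42.S0076.qw_smul ω B.card Z U g τ) g T B]
    rw [Finset.sum_congr rfl (fun g _ => this g), Finset.sum_const, Finset.card_univ,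
      nsmul_eq_mul]
  have h2 := Crest.Agent.Helper48.S0076.stab_count (G := G) B
    (fun U : Finset X => w ^ U.card * Aseq Z (qw (G := G) ω B.card Z) T U)
    (fun U _ => mul_nonneg (pow_nonneg hw.le _) (hA U))
  have h3 := bigworld (G := G) B Z w ω hw hω hωE hKB T
  have hI : (0 : ℝ) ≤ (inj G Z B : ℝ) ^ T := pow_nonneg (Nat.cast_nonneg _) _
  have hstab0 : (0 : ℝ) ≤ (stab G B : ℝ) := Nat.cast_nonneg _
  have h4 : (Fintype.card G : ℝ) * (w ^ B.card * Aseq Z (qw (G := G) ω B.card Z) T B)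
      ≤ (Fintype.card G : ℝ) * (2 * p ^ B.card * (inj G Z B : ℝ) ^ T) := by
    calc (Fintype.card G : ℝ) * (w ^ B.card * Aseq Z (qw (G := G) ω B.card Z) T B)
        = ∑ g : G, (fun U : Finset X =>
            w ^ U.card * Aseq Z (qw (G := G) ω B.card Z) T U) (g • B) := h1.symm
      _ ≤ (stab G B : ℝ) * ∑ U ∈ goodSet G B,
            w ^ U.card * Aseq Z (qw (G := G) ω B.card Z) T U := h2
      _ ≤ (stab G B : ℝ) * (inj G Z B : ℝ) ^ T := mul_le_mul_of_nonneg_left h3 hstab0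
      _ ≤ (2 * (Fintype.card G : ℝ) * p ^ B.card) * (inj G Z B : ℝ) ^ T :=
          mul_le_mul_of_nonneg_right hstab hI
      _ = _ := by ring
  have h5 := le_of_mul_le_mul_left h4 hGpos
  linarith

/-- **Theorem AR** (abstract Theorem A + (R3)). -/
theorem thmAR (B Z : Finset X) (p w ω : ℝ) (hp : 0 < p) (hw : 0 < w) (hω : 0 < ω)
    (hZ : 0 < Z.card)
    (hstab : (stab G B : ℝ) ≤ 2 * (Fintype.card G : ℝ) * p ^ B.card)
    (hKB : ∀ S ⊆ Z, (inj G S B : ℝ) * w ^ (Z.card - S.card) ≤ (inj G Z B : ℝ))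
    (hheavy : ∀ x ∈ B, ω * (inj G Z B : ℝ) ≤ (hits G Z B x : ℝ)) (hinj : 0 < inj G Z B) :
    (B.card : ℝ) * Real.log (w / p)
      ≤ Real.log 2 + (B.card : ℝ) * (Real.log ((Z.card : ℝ) / (ω * (B.card : ℝ))) + 2) := by
  rcases Nat.eq_zero_or_pos B.card with hE0 | hEpos
  · rw [hE0]
    have : (0 : ℝ) ≤ Real.log 2 := Real.log_nonneg (by norm_num)
    simpa using this
  set E : ℕ := B.card with hE
  set m : ℕ := Z.card with hm
  set I : ℝ := (inj G Z B : ℝ) with hIdef
  have hI : 0 < I := by rw [hIdef]; exact_mod_cast hinj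
  have hEr : (0 : ℝ) < (E : ℝ) := by exact_mod_cast hEpos
  have hmr : (0 : ℝ) < (m : ℝ) := by exact_mod_cast hZ
  -- `ω E ≤ m` from the heavy hypothesis and `∑ hits = m · inj`
  have hsum : ∑ x ∈ B, (hits G Z B x : ℝ) = (m : ℝ) * I := by
    have := Crest.Agent.Helper91.S0076.sum_hits (G := G) Z B
    have h' : ((∑ x ∈ B, hits G Z B x : ℕ) : ℝ) = ((Z.card * inj G Z B : ℕ) : ℝ) := by
      rw [this]
    push_cast at h'
    exact h'
  have hωE : ω * (E : ℝ) ≤ (m : ℝ) := by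
    have h1 : ∑ _x ∈ B, ω * I ≤ ∑ x ∈ B, (hits G Z B x : ℝ) :=
      Finset.sum_le_sum (fun x hx => hheavy x hx)
    rw [Finset.sum_const, nsmul_eq_mul, hsum] at h1
    have h2 : (ω * (E : ℝ)) * I ≤ (m : ℝ) * I := by
      have : ((B.card : ℕ) : ℝ) * (ω * I) = (ω * (E : ℝ)) * I := by rw [hE]; ring
      linarith
    exact le_of_mul_le_mul_right h2 hI
  -- `ω ≤ 1`
  have hω1 : ω ≤ 1 := by
    obtain ⟨x, hx⟩ := Finset.card_pos.mp hEpos
    have h1 := hheavy x hx
    have h2 : (hits G Z B x : ℝ) ≤ I := by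
      rw [hIdef]; exact_mod_cast hits_le_inj (G := G) Z B x
    have h3 : ω * I ≤ 1 * I := by linarith
    exact le_of_mul_le_mul_right h3 hI
  have hΦ : 0 ≤ Phi ω m (E : ℝ) :=
    Crest.Agent.Helper91.S0076.Phi_nonneg ω m hω (E : ℝ) hEr.le hωE
  set Φ : ℝ := Phi ω m (E : ℝ) with hΦdef
  -- the four ingredients, for every `T`
  have hPW : ∀ T : ℕ, Aseq Z (qw (G := G) ω E Z) T B * w ^ E ≤ 2 * p ^ E * I ^ T :=
    fun T => stepPW (G := G) B Z p w ω hw hω.le hωE hstab hKB T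
  have hJE : ∀ (T : ℕ) (lam : ℝ),
      Real.exp (-lam) * ((1 + lam) * Cseq G Z T B - Lseq G ω E Z T B)
        ≤ Aseq Z (qw (G := G) ω E Z) T B :=
    fun T lam => Crest.Agent.Helper54.S0076.jensen (G := G) B Z ω hω hωE hZ T B
      (Finset.Subset.refl B) lam
  have hPT : ∀ T : ℕ, Lseq G ω E Z T B ≤ I ^ T * Φ :=
    fun T => Crest.Agent.Helper91.S0076.potential (G := G) B Z ω hω hZ hωE hinj hheavy T
  have hCV : ∀ T : ℕ, I ^ T * (1 - (E : ℝ) * (1 - ω) ^ T) ≤ Cseq G Z T B := by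
    intro T
    have h1 := Crest.Agent.Helper73.S0076.cover (G := G) B Z T
    have h2 : ∑ x ∈ B, ((inj G Z B : ℝ) - (hits G Z B x : ℝ)) ^ T
        ≤ ∑ _x ∈ B, ((1 - ω) * I) ^ T := by
      refine Finset.sum_le_sum (fun x hx => ?_)
      have hh : (hits G Z B x : ℝ) ≤ I := by
        rw [hIdef]; exact_mod_cast hits_le_inj (G := G) Z B x
      have hx' := hheavy x hx
      exact pow_le_pow_left₀ (by rw [← hIdef]; linarith) (by rw [← hIdef]; nlinarith) T
    rw [Finset.sum_const, nsmul_eq_mul] at h2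
    have h3 : ((B.card : ℕ) : ℝ) * ((1 - ω) * I) ^ T = I ^ T * ((E : ℝ) * (1 - ω) ^ T) := by
      rw [mul_pow, hE]; ring
    rw [h3] at h2
    have : I ^ T * (1 - (E : ℝ) * (1 - ω) ^ T)
        = (inj G Z B : ℝ) ^ T - I ^ T * ((E : ℝ) * (1 - ω) ^ T) := by rw [← hIdef]; ring
    rw [this]
    linarith
  -- the bound for every `T` with `ε_T < 1`
  have hT : ∀ T : ℕ, (E : ℝ) * (1 - ω) ^ T < 1 →
      (E : ℝ) * Real.log (w / p)
        ≤ Real.log 2 - Real.log (1 - (E : ℝ) * (1 - ω) ^ T)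
          + Φ / (1 - (E : ℝ) * (1 - ω) ^ T) := by
    intro T hε
    set ε : ℝ := (E : ℝ) * (1 - ω) ^ T with hεdef
    have h1ε : 0 < 1 - ε := by linarith
    have hIT : 0 < I ^ T := pow_pos hI T
    set c : ℝ := Cseq G Z T B with hcdef
    have hc : I ^ T * (1 - ε) ≤ c := hCV T
    have hcpos : 0 < c := lt_of_lt_of_le (mul_pos hIT h1ε) hc
    set lam : ℝ := Lseq G ω E Z T B / c with hlam
    have hlamc : lam * c = Lseq G ω E Z T B := by
      rw [hlam]; field_simp
    have hj := hJE T lam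
    have hj' : Real.exp (-lam) * c ≤ Aseq Z (qw (G := G) ω E Z) T B := by
      have : (1 + lam) * c - Lseq G ω E Z T B = c := by rw [← hlamc]; ring
      rw [← hcdef, this] at hj
      exact hj
    have hwE : 0 < w ^ E := pow_pos hw E
    have hpE : 0 < p ^ E := pow_pos hp E
    have hmain : Real.exp (-lam) * c * w ^ E ≤ 2 * p ^ E * I ^ T :=
      le_trans (mul_le_mul_of_nonneg_right hj' hwE.le) (hPW T)
    have hlog := Real.log_le_log (by positivity) hmain
    rw [Real.log_mul (by positivity) hwE.ne', Real.log_mul (Real.exp_pos _).ne' hcpos.ne',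
      Real.log_exp, Real.log_pow, Real.log_mul (by positivity) hIT.ne',
      Real.log_mul (by norm_num) hpE.ne', Real.log_pow, Real.log_pow] at hlog
    have hlogc : Real.log (1 - ε) + (T : ℝ) * Real.log I ≤ Real.log c := by
      have := Real.log_le_log (mul_pos hIT h1ε) hc
      rw [Real.log_mul hIT.ne' h1ε.ne', Real.log_pow] at this
      linarith
    have hlamle : lam ≤ Φ / (1 - ε) := by
      rw [hlam]
      calc Lseq G ω E Z T B / c ≤ (I ^ T * Φ) / c :=
            div_le_div_of_nonneg_right (hPT T) hcpos.le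
        _ ≤ (I ^ T * Φ) / (I ^ T * (1 - ε)) :=
            div_le_div_of_nonneg_left (mul_nonneg hIT.le hΦ) (mul_pos hIT h1ε) hc
        _ = Φ / (1 - ε) := by field_simp
    rw [Real.log_div hw.ne' hp.ne']
    linarith
  -- let `T → ∞`
  have h1ω0 : 0 ≤ 1 - ω := by linarith
  have h1ω1 : 1 - ω < 1 := by linarith
  have hε : Tendsto (fun T : ℕ => (E : ℝ) * (1 - ω) ^ T) atTop (𝓝 0) := by
    have := (tendsto_pow_atTop_nhds_zero_of_lt_one h1ω0 h1ω1).const_mul (E : ℝ)
    simpa using this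
  have h1 : Tendsto (fun T : ℕ => 1 - (E : ℝ) * (1 - ω) ^ T) atTop (𝓝 1) := by
    have := (tendsto_const_nhds (x := (1 : ℝ))).sub hε
    simpa using this
  have hlim : Tendsto (fun T : ℕ => Real.log 2 - Real.log (1 - (E : ℝ) * (1 - ω) ^ T)
      + Φ / (1 - (E : ℝ) * (1 - ω) ^ T)) atTop (𝓝 (Real.log 2 - Real.log 1 + Φ / 1)) :=
    (tendsto_const_nhds.sub (h1.log one_ne_zero)).add (tendsto_const_nhds.div h1 one_ne_zero)
  have hev : ∀ᶠ T : ℕ in atTop, (E : ℝ) * Real.log (w / p)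
      ≤ Real.log 2 - Real.log (1 - (E : ℝ) * (1 - ω) ^ T)
        + Φ / (1 - (E : ℝ) * (1 - ω) ^ T) :=
    (hε.eventually (Iio_mem_nhds (zero_lt_one : (0 : ℝ) < 1))).mono (fun T hT' => hT T hT')
  have hfin := ge_of_tendsto hlim hev
  rw [Real.log_one, sub_zero, div_one] at hfin
  -- rewrite `Φ`
  have hΦeq : Φ = (E : ℝ) * (Real.log ((m : ℝ) / (ω * (E : ℝ))) + 2) := by
    rw [hΦdef]
    unfold Phi
    have hpos : 0 < (m : ℝ) / (ω * (E : ℝ)) := div_pos hmr (mul_pos hω hEr)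
    have : Real.exp 1 * (m : ℝ) / (ω * (E : ℝ)) = Real.exp 1 * ((m : ℝ) / (ω * (E : ℝ))) := by
      ring
    rw [this, Real.log_mul (Real.exp_pos 1).ne' hpos.ne', Real.log_exp]
    ring
  rw [hΦeq] at hfin
  exact hfin

end Crest.Agent.Helper99.S0076
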