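import Crest.Agent.Helper68.S0076.Defs

/-!
# S0076 log-spread lemma, leaf BW (helper99): the big-world weighted count

`bigworld`: `∑_{U good} ϖ^|U| · A_T(U) ≤ inj(Z,B)^T`, by induction on `T`; for a good `U` the
group elements are grouped by the pattern `S = {e ∈ Z | g • e ∈ U}`, then (KB) and the binomial
theorem.
-/

set_option autoImplicit false

namespace Crest.Agent.Helper99.S0076

open Finset Crest.Agent.Helper68.S0076
open scoped Pointwise

variable {G : Type*} {X : Type*} [Group G] [Fintype G] [Fintype X] [DecidableEq X] [MulAction G X]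

/-- (own copy of leaf P) the transfer operator under a sum. -/
theorem bw_sum_mul_push (Z : Finset X) (wt : Finset X → G → ℝ) (f h : Finset X → ℝ) :
    ∑ U' : Finset X, h U' * push Z wt f U'
      = ∑ U : Finset X, ∑ g : G, h (U ∪ g • Z) * (f U * wt U g) := by
  unfold push
  simp_rw [Finset.mul_sum]
  rw [Finset.sum_comm]
  refine Finset.sum_congr rfl (fun U _ => ?_)
  rw [Finset.sum_comm]
  refine Finset.sum_congr rfl (fun g _ => ?_)
  simp [mul_ite]

/-- (own copy of leaf N) the code parameter is a probability. -/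
theorem bw_nu_mem (ω : ℝ) (E m u : ℕ) (hω : 0 ≤ ω) (hωE : ω * (E : ℝ) ≤ (m : ℝ)) :
    0 ≤ nu ω E m u ∧ nu ω E m u ≤ 1 := by
  unfold nu
  split_ifs with hu
  · exact ⟨zero_le_one, le_rfl⟩
  · have h1 : ((E - u : ℕ) : ℝ) ≤ (E : ℝ) := by exact_mod_cast Nat.sub_le E u
    have h0 : (0 : ℝ) ≤ ((E - u : ℕ) : ℝ) := Nat.cast_nonneg _
    have hm : (0 : ℝ) ≤ (m : ℝ) := Nat.cast_nonneg _
    constructor
    · positivity
    · rcases eq_or_lt_of_le hm with hm0 | hmpos
      · rw [← hm0]; simp
      · rw [div_le_one hmpos]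
        calc ω * ((E - u : ℕ) : ℝ) ≤ ω * (E : ℝ) := mul_le_mul_of_nonneg_left h1 hω
          _ ≤ m := hωE

/-- (own copy of leaf N) code weights are nonnegative. -/
theorem bw_qw_nonneg (ω : ℝ) (E : ℕ) (Z U : Finset X) (g : G) (hω : 0 ≤ ω)
    (hωE : ω * (E : ℝ) ≤ (Z.card : ℝ)) : 0 ≤ qw ω E Z U g := by
  obtain ⟨h0, h1⟩ := bw_nu_mem ω E Z.card U.card hω hωE
  unfold qw
  exact mul_nonneg (pow_nonneg h0 _) (pow_nonneg (by linarith) _)

/-- (own copy of leaf N) path weights are nonnegative. -/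
theorem bw_Aseq_nonneg (Z : Finset X) (wt : Finset X → G → ℝ) (hwt : ∀ U g, 0 ≤ wt U g)
    (T : ℕ) (U : Finset X) : 0 ≤ Aseq Z wt T U := by
  induction T generalizing U with
  | zero =>
    show 0 ≤ (if U = ∅ then (1 : ℝ) else 0)
    split_ifs <;> norm_num
  | succ T ih =>
    show 0 ≤ push Z wt (Aseq Z wt T) U
    unfold push
    refine Finset.sum_nonneg (fun V _ => Finset.sum_nonneg (fun g _ => ?_))
    split_ifs
    · exact mul_nonneg (ih V) (hwt V g)
    · exact le_rfl

/-- The old/new pattern of the translate `g • Z` with respect to `U`. -/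
def oldPat (Z U : Finset X) (g : G) : Finset X := Z.filter (fun e => g • e ∈ U)

theorem oldPat_subset (Z U : Finset X) (g : G) : oldPat Z U g ⊆ Z := Finset.filter_subset _ _

theorem knew_add_card_oldPat (Z U : Finset X) (g : G) :
    knew Z U g + (oldPat Z U g).card = Z.card := by
  unfold knew oldPat
  have h1 : (g • Z) \ U = (Z.filter (fun e => ¬ g • e ∈ U)).image (fun e => g • e) := by
    ext x
    simp only [Finset.mem_sdiff, Finset.mem_image, Finset.mem_filter, Finset.smul_finset_def]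
    constructor
    · rintro ⟨⟨e, he, rfl⟩, hx⟩
      exact ⟨e, ⟨he, hx⟩, rfl⟩
    · rintro ⟨e, ⟨he, hx⟩, rfl⟩
      exact ⟨⟨e, he, rfl⟩, hx⟩
  rw [h1, Finset.card_image_of_injective _ (MulAction.injective g), add_comm]
  exact Finset.card_filter_add_card_filter_not _

theorem card_union_smul (Z U : Finset X) (g : G) :
    (U ∪ g • Z).card = U.card + knew Z U g := by
  unfold knew
  rw [← Finset.union_sdiff_self_eq_union, Finset.card_union_of_disjoint Finset.disjoint_sdiff]

/-- The number of `g` with a given old pattern `S` is at most `inj S B` when `U` is good. -/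
theorem card_fiber_le_inj (B Z U S : Finset X) (g₀ : G) (hU : U ⊆ g₀ • B) :
    ((Finset.univ.filter (fun g : G => oldPat Z U g = S)).card : ℝ) ≤ (inj G S B : ℝ) := by
  have : (Finset.univ.filter (fun g : G => oldPat Z U g = S)).card ≤ inj G S B := by
    unfold inj
    refine Finset.card_le_card_of_injOn (fun g => g₀⁻¹ * g) ?_ ?_
    · intro g hg
      have hg' : oldPat Z U g = S := by simpa using hg
      have hsub : g • S ⊆ g₀ • B := by
        intro x hx
        rw [Finset.smul_finset_def, Finset.mem_image] at hx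
        obtain ⟨e, he, rfl⟩ := hx
        rw [← hg'] at he
        exact hU (Finset.mem_filter.mp he).2
      have : (g₀⁻¹ * g) • S ⊆ B := by
        rw [mul_smul, Finset.smul_finset_subset_iff, inv_inv]
        exact hsub
      simpa using this
    · intro a _ b _ hab
      exact mul_left_cancel hab
  exact_mod_cast this

/-- The one-step bound: for a good `U` the weighted sum over all `g` is at most `inj Z B`. -/
theorem sum_pow_knew_mul_qw_le (B Z U : Finset X) (ϖ ω : ℝ) (hϖ : 0 < ϖ) (hω : 0 ≤ ω)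
    (hωE : ω * (B.card : ℝ) ≤ (Z.card : ℝ))
    (hKB : ∀ S ⊆ Z, (inj G S B : ℝ) * ϖ ^ (Z.card - S.card) ≤ (inj G Z B : ℝ))
    (g₀ : G) (hU : U ⊆ g₀ • B) :
    ∑ g : G, ϖ ^ knew Z U g * qw ω B.card Z U g ≤ (inj G Z B : ℝ) := by
  obtain ⟨hν0, hν1⟩ := bw_nu_mem ω B.card Z.card U.card hω hωE
  set ν : ℝ := nu ω B.card Z.card U.card with hν
  -- rewrite every term as a function of the old pattern
  have hterm : ∀ g : G, ϖ ^ knew Z U g * qw ω B.card Z U g
      = ϖ ^ (Z.card - (oldPat Z U g).card)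
        * ((1 - ν) ^ (oldPat Z U g).card * ν ^ (Z.card - (oldPat Z U g).card)) := by
    intro g
    have h := knew_add_card_oldPat Z U g
    have hk : knew Z U g = Z.card - (oldPat Z U g).card := by omega
    have hk' : Z.card - knew Z U g = (oldPat Z U g).card := by omega
    unfold qw
    rw [← hν, hk', hk]
    ring
  rw [Finset.sum_congr rfl (fun g _ => hterm g)]
  rw [← Finset.sum_fiberwise_of_maps_to (s := (Finset.univ : Finset G)) (t := Z.powerset)
    (g := fun g => oldPat Z U g)
    (fun g _ => Finset.mem_powerset.mpr (oldPat_subset Z U g))]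
  have hbound : ∀ S ∈ Z.powerset,
      ∑ g ∈ (Finset.univ : Finset G) with oldPat Z U g = S,
        ϖ ^ (Z.card - (oldPat Z U g).card)
          * ((1 - ν) ^ (oldPat Z U g).card * ν ^ (Z.card - (oldPat Z U g).card))
      ≤ (inj G Z B : ℝ) * ((1 - ν) ^ S.card * ν ^ (Z.card - S.card)) := by
    intro S hS
    have hSZ : S ⊆ Z := Finset.mem_powerset.mp hS
    have hc : ∑ g ∈ (Finset.univ : Finset G) with oldPat Z U g = S,
        ϖ ^ (Z.card - (oldPat Z U g).card)
          * ((1 - ν) ^ (oldPat Z U g).card * ν ^ (Z.card - (oldPat Z U g).card))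
        = ((Finset.univ.filter (fun g : G => oldPat Z U g = S)).card : ℝ)
          * (ϖ ^ (Z.card - S.card) * ((1 - ν) ^ S.card * ν ^ (Z.card - S.card))) := by
      rw [← nsmul_eq_mul, ← Finset.sum_const]
      refine Finset.sum_congr rfl (fun g hg => ?_)
      rw [(Finset.mem_filter.mp hg).2]
    rw [hc]
    have hnn : (0 : ℝ) ≤ (1 - ν) ^ S.card * ν ^ (Z.card - S.card) :=
      mul_nonneg (pow_nonneg (by linarith) _) (pow_nonneg hν0 _)
    have hϖnn : (0 : ℝ) ≤ ϖ ^ (Z.card - S.card) := pow_nonneg hϖ.le _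
    calc ((Finset.univ.filter (fun g : G => oldPat Z U g = S)).card : ℝ)
          * (ϖ ^ (Z.card - S.card) * ((1 - ν) ^ S.card * ν ^ (Z.card - S.card)))
        ≤ (inj G S B : ℝ)
          * (ϖ ^ (Z.card - S.card) * ((1 - ν) ^ S.card * ν ^ (Z.card - S.card))) :=
          mul_le_mul_of_nonneg_right (card_fiber_le_inj B Z U S g₀ hU) (mul_nonneg hϖnn hnn)
      _ = ((inj G S B : ℝ) * ϖ ^ (Z.card - S.card))
          * ((1 - ν) ^ S.card * ν ^ (Z.card - S.card)) := by ring
      _ ≤ (inj G Z B : ℝ) * ((1 - ν) ^ S.card * ν ^ (Z.card - S.card)) :=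
          mul_le_mul_of_nonneg_right (hKB S hSZ) hnn
  calc ∑ S ∈ Z.powerset, ∑ g ∈ (Finset.univ : Finset G) with oldPat Z U g = S,
        ϖ ^ (Z.card - (oldPat Z U g).card)
          * ((1 - ν) ^ (oldPat Z U g).card * ν ^ (Z.card - (oldPat Z U g).card))
      ≤ ∑ S ∈ Z.powerset, (inj G Z B : ℝ) * ((1 - ν) ^ S.card * ν ^ (Z.card - S.card)) :=
        Finset.sum_le_sum hbound
    _ = (inj G Z B : ℝ) * ∑ S ∈ Z.powerset, (1 - ν) ^ S.card * ν ^ (Z.card - S.card) := by
        rw [Finset.mul_sum]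
    _ = (inj G Z B : ℝ) := by
        rw [Finset.sum_pow_mul_eq_add_pow]
        simp

/-- If `U ∪ g • Z` is good then `U` is good. -/
theorem good_of_union (B U Z : Finset X) (g : G) (h : U ∪ g • Z ∈ goodSet G B) :
    U ∈ goodSet G B := by
  rw [mem_goodSet] at h ⊢
  obtain ⟨g₁, hg₁⟩ := h
  exact ⟨g₁, Finset.union_subset_left hg₁⟩

/-- **Leaf BW**: the big-world weighted count. -/
theorem bigworld (B Z : Finset X) (ϖ ω : ℝ) (hϖ : 0 < ϖ) (hω : 0 ≤ ω)
    (hωE : ω * (B.card : ℝ) ≤ (Z.card : ℝ))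
    (hKB : ∀ S ⊆ Z, (inj G S B : ℝ) * ϖ ^ (Z.card - S.card) ≤ (inj G Z B : ℝ)) (T : ℕ) :
    ∑ U ∈ goodSet G B, ϖ ^ U.card * Aseq Z (qw (G := G) ω B.card Z) T U
      ≤ (inj G Z B : ℝ) ^ T := by
  classical
  have hI : (0 : ℝ) ≤ (inj G Z B : ℝ) := Nat.cast_nonneg _
  have hA : ∀ (T : ℕ) (U : Finset X), 0 ≤ Aseq Z (qw (G := G) ω B.card Z) T U :=
    fun T U => bw_Aseq_nonneg Z _ (fun U g => bw_qw_nonneg ω B.card Z U g hω hωE) T U
  induction T with
  | zero =>
    have h0 : ∀ U ∈ goodSet G B, ϖ ^ U.card * Aseq Z (qw (G := G) ω B.card Z) 0 U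
        = if U = ∅ then 1 else 0 := by
      intro U _
      show ϖ ^ U.card * (if U = ∅ then (1 : ℝ) else 0) = _
      split_ifs with h
      · subst h; simp
      · simp
    rw [Finset.sum_congr rfl h0, Finset.sum_ite_eq']
    split_ifs <;> simp
  | succ T ih =>
    set h : Finset X → ℝ := fun U' => if U' ∈ goodSet G B then ϖ ^ U'.card else 0 with hh
    have hstep : ∑ U ∈ goodSet G B, ϖ ^ U.card * Aseq Z (qw (G := G) ω B.card Z) (T + 1) U
        = ∑ U' : Finset X, h U' * push Z (qw (G := G) ω B.card Z)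
            (Aseq Z (qw (G := G) ω B.card Z) T) U' := by
      rw [← Finset.sum_filter_add_sum_filter_not Finset.univ (fun U' => U' ∈ goodSet G B)
        (fun U' => h U' * push Z (qw (G := G) ω B.card Z)
            (Aseq Z (qw (G := G) ω B.card Z) T) U')]
      have hz : ∑ U' ∈ Finset.univ.filter (fun U' => ¬ U' ∈ goodSet G B),
          h U' * push Z (qw (G := G) ω B.card Z) (Aseq Z (qw (G := G) ω B.card Z) T) U' = 0 := by
        refine Finset.sum_eq_zero (fun U' hU' => ?_)
        have : U' ∉ goodSet G B := (Finset.mem_filter.mp hU').2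
        simp [hh, this]
      rw [hz, add_zero]
      have hfil : Finset.univ.filter (fun U' => U' ∈ goodSet G B) = goodSet G B := by
        ext U'; simp
      rw [hfil]
      refine Finset.sum_congr rfl (fun U' hU' => ?_)
      simp only [hh, hU', if_true]
      rfl
    rw [hstep, bw_sum_mul_push]
    -- bound the inner sum for every `U`
    have hinner : ∀ U : Finset X,
        ∑ g : G, h (U ∪ g • Z) * (Aseq Z (qw (G := G) ω B.card Z) T U * qw ω B.card Z U g)
        ≤ (inj G Z B : ℝ)
          * (if U ∈ goodSet G B then ϖ ^ U.card * Aseq Z (qw (G := G) ω B.card Z) T U else 0) := by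
      intro U
      by_cases hUg : U ∈ goodSet G B
      · simp only [hUg, if_true]
        obtain ⟨g₀, hg₀⟩ := (mem_goodSet G B U).mp hUg
        have h1 : ∀ g : G,
            h (U ∪ g • Z) * (Aseq Z (qw (G := G) ω B.card Z) T U * qw ω B.card Z U g)
            ≤ (ϖ ^ U.card * Aseq Z (qw (G := G) ω B.card Z) T U)
              * (ϖ ^ knew Z U g * qw ω B.card Z U g) := by
          intro g
          have hnn : 0 ≤ Aseq Z (qw (G := G) ω B.card Z) T U * qw ω B.card Z U g :=
            mul_nonneg (hA T U) (bw_qw_nonneg ω B.card Z U g hω hωE)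
          have hle : h (U ∪ g • Z) ≤ ϖ ^ U.card * ϖ ^ knew Z U g := by
            rw [← pow_add, ← card_union_smul]
            simp only [hh]
            split_ifs
            · exact le_rfl
            · exact pow_nonneg hϖ.le _
          calc h (U ∪ g • Z) * (Aseq Z (qw (G := G) ω B.card Z) T U * qw ω B.card Z U g)
              ≤ (ϖ ^ U.card * ϖ ^ knew Z U g)
                * (Aseq Z (qw (G := G) ω B.card Z) T U * qw ω B.card Z U g) :=
                mul_le_mul_of_nonneg_right hle hnn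
            _ = _ := by ring
        calc ∑ g : G, h (U ∪ g • Z) * (Aseq Z (qw (G := G) ω B.card Z) T U * qw ω B.card Z U g)
            ≤ ∑ g : G, (ϖ ^ U.card * Aseq Z (qw (G := G) ω B.card Z) T U)
              * (ϖ ^ knew Z U g * qw ω B.card Z U g) := Finset.sum_le_sum (fun g _ => h1 g)
          _ = (ϖ ^ U.card * Aseq Z (qw (G := G) ω B.card Z) T U)
              * ∑ g : G, ϖ ^ knew Z U g * qw ω B.card Z U g := by rw [Finset.mul_sum]
          _ ≤ (ϖ ^ U.card * Aseq Z (qw (G := G) ω B.card Z) T U) * (inj G Z B : ℝ) :=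
              mul_le_mul_of_nonneg_left
                (sum_pow_knew_mul_qw_le B Z U ϖ ω hϖ hω hωE hKB g₀ hg₀)
                (mul_nonneg (pow_nonneg hϖ.le _) (hA T U))
          _ = _ := by ring
      · simp only [hUg, if_false, mul_zero]
        refine le_of_eq (Finset.sum_eq_zero (fun g _ => ?_))
        have : U ∪ g • Z ∉ goodSet G B := fun hc => hUg (good_of_union B U Z g hc)
        simp [hh, this]
    calc ∑ U : Finset X, ∑ g : G,
          h (U ∪ g • Z) * (Aseq Z (qw (G := G) ω B.card Z) T U * qw ω B.card Z U g)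
        ≤ ∑ U : Finset X, (inj G Z B : ℝ)
          * (if U ∈ goodSet G B then ϖ ^ U.card * Aseq Z (qw (G := G) ω B.card Z) T U else 0) :=
          Finset.sum_le_sum (fun U _ => hinner U)
      _ = (inj G Z B : ℝ) * ∑ U ∈ goodSet G B,
            ϖ ^ U.card * Aseq Z (qw (G := G) ω B.card Z) T U := by
          rw [← Finset.mul_sum, Finset.sum_ite_mem, Finset.univ_inter]
      _ ≤ (inj G Z B : ℝ) * (inj G Z B : ℝ) ^ T := mul_le_mul_of_nonneg_left ih hI
      _ = (inj G Z B : ℝ) ^ (T + 1) := by ring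

end Crest.Agent.Helper99.S0076
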